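import Vale.Agent.P183.R2.H668.KW.Spec

set_option autoImplicit false

/-! Row C: lattice orders are coded by graphs without four-cycles. -/

namespace Vale.Agent.P183.R2.H205.KW

open Vale.Agent.P183.R2.H668.KW

/-- the bipartite cover graph -/
def cg (α : Type) [Lattice α] : SimpleGraph (α ⊕ α) where
  Adj u v := (∃ a b : α, u = Sum.inl a ∧ v = Sum.inr b ∧ a ⋖ b) ∨
    ∃ a b : α, u = Sum.inr b ∧ v = Sum.inl a ∧ a ⋖ b
  symm := ⟨by
    rintro u v (⟨a, b, h1, h2, h3⟩ | ⟨a, b, h1, h2, h3⟩)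
    · exact Or.inr ⟨a, b, h2, h1, h3⟩
    · exact Or.inl ⟨a, b, h2, h1, h3⟩⟩
  loopless := ⟨by
    rintro u (⟨a, b, h1, h2, h3⟩ | ⟨a, b, h1, h2, h3⟩)
    · rw [h1] at h2; exact Sum.inl_ne_inr h2
    · rw [h1] at h2; exact Sum.inr_ne_inl h2⟩

theorem cg_adj {α : Type} [Lattice α] (a b : α) :
    (cg α).Adj (Sum.inl a) (Sum.inr b) ↔ a ⋖ b := by
  constructor
  · rintro (⟨a', b', h1, h2, h3⟩ | ⟨a', b', h1, h2, h3⟩)
    · rw [Sum.inl.inj h1, Sum.inr.inj h2]; exact h3
    · exact absurd h1 Sum.inl_ne_inr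
  · intro h
    exact Or.inl ⟨a, b, rfl, rfl, h⟩

theorem sup_eq' {α : Type} [Lattice α] {a b c : α} (h1 : a ⋖ c) (h2 : b ⋖ c) (h : a ≠ b) :
    a ⊔ b = c := by
  have h3 : a ⊔ b ≤ c := sup_le h1.le h2.le
  rcases h1.eq_or_eq le_sup_left h3 with h4 | h4
  · have h5 : b ≤ a := by
      rw [← h4]; exact le_sup_right
    rcases h2.eq_or_eq h5 h1.le with h6 | h6
    · exact absurd h6 h
    · exact absurd h6 h1.lt.ne
  · exact h4

theorem inf_eq' {α : Type} [Lattice α] {a b c : α} (h1 : c ⋖ a) (h2 : c ⋖ b) (h : a ≠ b) :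
    a ⊓ b = c := by
  have h3 : c ≤ a ⊓ b := le_inf h1.le h2.le
  rcases h1.eq_or_eq h3 inf_le_left with h4 | h4
  · exact h4
  · have h5 : a ≤ b := by
      rw [← h4]; exact inf_le_right
    rcases h2.eq_or_eq h1.le h5 with h6 | h6
    · exact absurd h6.symm h1.lt.ne
    · exact absurd h6 h

theorem cg_free (α : Type) [Lattice α] : C4Free (cg α) := by
  intro u v x y huv hux hvx huy hvy
  rcases hux with ⟨a, c, h1, h2, h3⟩ | ⟨c, a, h1, h2, h3⟩
  · rcases hvx with ⟨b, c', g1, g2, g3⟩ | ⟨c', b, g1, g2, g3⟩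
    · rcases huy with ⟨a', d, k1, k2, k3⟩ | ⟨d, a', k1, k2, k3⟩
      · rcases hvy with ⟨b', d', l1, l2, l3⟩ | ⟨d', b', l1, l2, l3⟩
        · subst h1 g1 h2 k2
          obtain rfl := Sum.inr.inj g2
          obtain rfl := Sum.inl.inj k1
          obtain rfl := Sum.inr.inj l2
          obtain rfl := Sum.inl.inj l1
          have hab : a ≠ b := fun h => huv (by rw [h])
          rw [← sup_eq' h3 g3 hab, ← sup_eq' k3 l3 hab]
        · rw [k2] at l2; exact absurd l2 Sum.inr_ne_inl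
      · rw [h1] at k1; exact absurd k1 Sum.inl_ne_inr
    · rw [h2] at g2; exact absurd g2 Sum.inr_ne_inl
  · rcases hvx with ⟨b, c', g1, g2, g3⟩ | ⟨c', b, g1, g2, g3⟩
    · rw [h2] at g2; exact absurd g2 Sum.inl_ne_inr
    · rcases huy with ⟨a', d, k1, k2, k3⟩ | ⟨d, a', k1, k2, k3⟩
      · rw [h1] at k1; exact absurd k1 Sum.inr_ne_inl
      · rcases hvy with ⟨b', d', l1, l2, l3⟩ | ⟨d', b', l1, l2, l3⟩
        · rw [k2] at l2; exact absurd l2 Sum.inl_ne_inr
        · subst h1 g1 h2 k2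
          obtain rfl := Sum.inl.inj g2
          obtain rfl := Sum.inr.inj k1
          obtain rfl := Sum.inl.inj l2
          obtain rfl := Sum.inr.inj l1
          have hab : a ≠ b := fun h => huv (by rw [h])
          rw [← inf_eq' h3 g3 hab, ← inf_eq' k3 l3 hab]

theorem le_iff {α : Type} [Finite α] [Lattice α] (x y : α) :
    x ≤ y ↔ Relation.ReflTransGen (fun a b : α => (cg α).Adj (Sum.inl a) (Sum.inr b)) x y := by
  classical
  have := Fintype.ofFinite α
  let _ : LocallyFiniteOrder α := Fintype.toLocallyFiniteOrder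
  simp only [cg_adj]
  exact le_iff_reflTransGen_covBy

theorem rowC : StC := by
  intro n κ _ Λ hΛ
  have h1 : Function.Injective (fun i : κ =>
      (⟨@cg (Fin n) (Λ i), @cg_free (Fin n) (Λ i)⟩ :
        {G : SimpleGraph (Fin n ⊕ Fin n) | C4Free G})) := by
    intro i j hij
    have h2 : @cg (Fin n) (Λ i) = @cg (Fin n) (Λ j) := congrArg Subtype.val hij
    apply hΛ
    intro x y
    have h3 := @le_iff (Fin n) _ (Λ i) x y
    have h4 := @le_iff (Fin n) _ (Λ j) x y
    rw [h2] at h3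
    exact h3.trans h4.symm
  have h5 := Nat.card_le_card_of_injective _ h1
  rwa [Nat.card_coe_set_eq] at h5

end Vale.Agent.P183.R2.H205.KW
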